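import Vale.Agent.P181.H303.Spec
import Mathlib.Algebra.Polynomial.Homogenize

set_option autoImplicit false

namespace Vale.Agent.P181.H662

open Finset Polynomial
open Vale.Agent.P181.H303

/-! ### Toolkit for `AH` -/

section AHkit

variable {W : Type*} [AddCommGroup W] [Module ℂ W] {G G' : Set W} {c d : ℝ}

lemma AH_mono (h : c ≤ d) {x : W} (hx : x ∈ AH G c) : x ∈ AH G d := by
  obtain ⟨m, w, g, h1, h2, h3⟩ := hx
  exact ⟨m, w, g, h1, h2.trans h, h3⟩

lemma AH_zero (hc : 0 ≤ c) : (0 : W) ∈ AH G c :=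
  ⟨0, fun i => i.elim0, fun i => i.elim0, fun i => i.elim0, by simpa using hc, by simp⟩

lemma AH_nonneg {x : W} (hx : x ∈ AH G c) : 0 ≤ c := by
  obtain ⟨m, w, g, h1, h2, h3⟩ := hx
  exact (Finset.sum_nonneg (fun i _ => norm_nonneg _)).trans h2

lemma AH_mem {x : W} (hx : x ∈ G) : x ∈ AH G 1 :=
  ⟨1, fun _ => 1, fun _ => x, fun _ => hx, by simp, by simp⟩

lemma AH_smul (w : ℂ) {x : W} (hx : x ∈ AH G c) : w • x ∈ AH G (‖w‖ * c) := by
  obtain ⟨m, v, g, h1, h2, rfl⟩ := hx
  refine ⟨m, fun i => w * v i, g, h1, ?_, ?_⟩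
  · simp only [norm_mul, ← Finset.mul_sum]
    exact mul_le_mul_of_nonneg_left h2 (norm_nonneg _)
  · rw [Finset.smul_sum]
    exact Finset.sum_congr rfl (fun i _ => by rw [smul_smul])

lemma AH_add {x y : W} (hx : x ∈ AH G c) (hy : y ∈ AH G d) : x + y ∈ AH G (c + d) := by
  obtain ⟨m, v, g, h1, h2, rfl⟩ := hx
  obtain ⟨m', v', g', h1', h2', rfl⟩ := hy
  refine ⟨m + m', Fin.append v v', Fin.append g g', ?_, ?_, ?_⟩
  · intro i
    refine Fin.addCases (fun i => ?_) (fun i => ?_) i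
    · rw [Fin.append_left]
      exact h1 i
    · rw [Fin.append_right]
      exact h1' i
  · rw [Fin.sum_univ_add]
    simp only [Fin.append_left, Fin.append_right]
    exact add_le_add h2 h2'
  · rw [Fin.sum_univ_add]
    simp only [Fin.append_left, Fin.append_right]

lemma AH_sum {ι : Type*} (s : Finset ι) (x : ι → W) (c : ι → ℝ)
    (h : ∀ i ∈ s, x i ∈ AH G (c i)) : ∑ i ∈ s, x i ∈ AH G (∑ i ∈ s, c i) := by
  classical
  induction s using Finset.induction_on with
  | empty => simpa using AH_zero (G := G) (le_refl (0 : ℝ))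
  | insert i s hi ih =>
    rw [Finset.sum_insert hi, Finset.sum_insert hi]
    exact AH_add (h i (Finset.mem_insert_self i s))
      (ih (fun j hj => h j (Finset.mem_insert_of_mem hj)))

lemma AH_map {W' : Type*} [AddCommGroup W'] [Module ℂ W'] {G' : Set W'} (f : W →ₗ[ℂ] W')
    (hf : ∀ g ∈ G, f g ∈ G') {x : W} (hx : x ∈ AH G c) : f x ∈ AH G' c := by
  obtain ⟨m, v, g, h1, h2, rfl⟩ := hx
  exact ⟨m, v, fun i => f (g i), fun i => hf _ (h1 i), h2, by simp [map_sum]⟩

end AHkit

section Mono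

variable {A : Type*} [CommRing A] [Algebra ℂ A] {s : ℕ} {y : Fin s → A}

omit [Algebra ℂ A] in
lemma Mono_mul {a b : ℕ} {x z : A} (hx : x ∈ Mono y a) (hz : z ∈ Mono y b) :
    x * z ∈ Mono y (a + b) := by
  obtain ⟨α, h1, rfl⟩ := hx
  obtain ⟨β, h2, rfl⟩ := hz
  refine ⟨fun i => α i + β i, by rw [Finset.sum_add_distrib, h1, h2], ?_⟩
  rw [← Finset.prod_mul_distrib]
  exact Finset.prod_congr rfl (fun i _ => (pow_add _ _ _).symm)

lemma AH_mul {a b : ℕ} {c d : ℝ} {x z : A} (hx : x ∈ AH (Mono y a) c)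
    (hz : z ∈ AH (Mono y b) d) : x * z ∈ AH (Mono y (a + b)) (c * d) := by
  have hd := AH_nonneg hz
  obtain ⟨m, v, g, h1, h2, rfl⟩ := hx
  rw [Finset.sum_mul]
  refine AH_mono ?_ (AH_sum univ (fun i => (v i • g i) * z) (fun i => ‖v i‖ * d)
    (fun i _ => ?_))
  · rw [← Finset.sum_mul]
    exact mul_le_mul_of_nonneg_right h2 hd
  · rw [smul_mul_assoc]
    apply AH_smul
    exact AH_map (LinearMap.mulLeft ℂ (g i)) (fun u hu => Mono_mul (h1 i) hu) hz

lemma AH_one : (1 : A) ∈ AH (Mono y 0) 1 := AH_mem ⟨fun _ => 0, by simp, by simp⟩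

lemma AH_pow {a : ℕ} {x : A} (hx : x ∈ AH (Mono y a) 1) (n : ℕ) :
    x ^ n ∈ AH (Mono y (n * a)) 1 := by
  induction n with
  | zero =>
    rw [pow_zero, zero_mul]
    exact AH_one
  | succ n ih =>
    have h1 := AH_mul ih hx
    rw [mul_one] at h1
    rw [pow_succ, Nat.succ_mul]
    exact h1

end Mono

/-! ### Truncated `q`-th root of `1 + X` with coefficients of size at most `1` -/

lemma choose_bound (x : ℚ) (h0 : 0 ≤ x) (h1 : x ≤ 1) (n : ℕ) : |Ring.choose x n| ≤ 1 := by
  induction n with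
  | zero => rw [Ring.choose_zero_right, abs_one]
  | succ n ih =>
    have h2 := Ring.choose_smul_choose x (Nat.le_succ n)
    rw [Nat.succ_eq_add_one, Nat.choose_succ_self_right, Nat.add_sub_cancel_left,
      Ring.choose_one_right, nsmul_eq_mul] at h2
    have hn : (0 : ℚ) ≤ n := Nat.cast_nonneg n
    have h3 : |x - (n : ℚ)| ≤ n + 1 := by
      rw [abs_le]
      constructor <;> linarith
    have h4 : ((n : ℚ) + 1) * |Ring.choose x (n + 1)| = |Ring.choose x n| * |x - (n : ℚ)| := by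
      rw [← abs_mul, ← h2, abs_mul]
      push_cast
      rw [abs_of_nonneg (by linarith : (0 : ℚ) ≤ n + 1)]
    have h5 : |Ring.choose x n| * |x - (n : ℚ)| ≤ 1 * (n + 1) :=
      mul_le_mul ih h3 (abs_nonneg _) zero_le_one
    have h6 : (0 : ℚ) < (n : ℚ) + 1 := by linarith
    nlinarith [abs_nonneg (Ring.choose x (n + 1))]

lemma bs_pow (x : ℚ) (n : ℕ) :
    (PowerSeries.binomialSeries ℂ x) ^ n = PowerSeries.binomialSeries ℂ ((n : ℚ) * x) := by
  induction n with
  | zero =>
    rw [pow_zero, Nat.cast_zero, zero_mul, PowerSeries.binomialSeries_zero]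
  | succ n ih =>
    rw [pow_succ, ih, ← PowerSeries.binomialSeries_add]
    congr 1
    push_cast
    ring

lemma exists_root' (q : ℕ) (hq : 1 ≤ q) (s : ℕ) :
    ∃ p : ℂ[X], p.natDegree ≤ s ∧ (∀ j, ‖p.coeff j‖ ≤ 1) ∧
      ∀ m ≤ s, (p ^ q).coeff m = (1 + X : ℂ[X]).coeff m := by
  obtain ⟨x, hx⟩ : ∃ x : ℚ, x = 1 / q := ⟨_, rfl⟩
  have hq1 : (1 : ℚ) ≤ q := by exact_mod_cast hq
  have hx0 : 0 ≤ x := by rw [hx]; positivity
  have hx1 : x ≤ 1 := by
    rw [hx, div_le_one (by linarith)]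
    exact hq1
  have hqx : (q : ℚ) * x = ((1 : ℕ) : ℚ) := by
    rw [hx]
    field_simp
    simp
  obtain ⟨B, hB⟩ : ∃ B : PowerSeries ℂ, B = PowerSeries.binomialSeries ℂ x := ⟨_, rfl⟩
  have hBq : B ^ q = 1 + PowerSeries.X := by
    rw [hB, bs_pow, hqx]
    have h1 := PowerSeries.binomialSeries_nat (R := ℚ) (A := ℂ) 1
    rw [h1, pow_one]
  refine ⟨PowerSeries.trunc (s + 1) B, ?_, ?_, ?_⟩
  · have := PowerSeries.natDegree_trunc_lt B s
    omega
  · intro j
    rw [PowerSeries.coeff_trunc]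
    split_ifs
    · rw [hB, PowerSeries.binomialSeries_coeff]
      have h1 := choose_bound x hx0 hx1 j
      rw [Rat.smul_def, mul_one, Complex.norm_ratCast]
      exact_mod_cast h1
    · simp
  · intro m hm
    have h1 := PowerSeries.trunc_trunc_pow B (s + 1) q
    rw [hBq] at h1
    have h2 := congrArg (fun z => Polynomial.coeff z m) h1
    simp only [PowerSeries.coeff_trunc, if_pos (Nat.lt_succ_of_le hm)] at h2
    rw [← Polynomial.coe_pow, Polynomial.coeff_coe] at h2
    rw [h2, map_add, PowerSeries.coeff_one, PowerSeries.coeff_X, Polynomial.coeff_add,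
      Polynomial.coeff_one, Polynomial.coeff_X]
    by_cases h3 : m = 1
    · subst h3
      simp
    · have h4 : ¬ (1 = m) := fun h => h3 h.symm
      simp only [if_neg h3, if_neg h4]

section hom

variable {A : Type*} [CommRing A] [Algebra ℂ A]

lemma aeval_hom (p : ℂ[X]) (n : ℕ) (φ y : A) :
    MvPolynomial.aeval ![y, φ] (p.homogenize n) =
      ∑ j ∈ range (n + 1), p.coeff j • (y ^ j * φ ^ (n - j)) := by
  rw [homogenize, map_sum, Finset.Nat.sum_antidiagonal_eq_sum_range_succ_mk]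
  apply Finset.sum_congr rfl
  intro j _
  rw [MvPolynomial.aeval_monomial, Algebra.smul_def]
  congr 1
  rw [Finsupp.prod_fintype _ _ (fun i => by simp), Fin.prod_univ_two]
  simp

lemma homogenize_pow' (p : ℂ[X]) {s : ℕ} (hp : p.natDegree ≤ s) (q : ℕ) :
    (p ^ q).homogenize (s * q) = (p.homogenize s) ^ q := by
  induction q with
  | zero => simp
  | succ q ih =>
    rw [pow_succ, pow_succ, mul_add, mul_one, homogenize_mul _ _ ?_ hp, ih]
    refine natDegree_pow_le.trans ?_
    rw [mul_comm s q]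
    exact Nat.mul_le_mul_left q hp

/-- The `q`-th power of a homogenised polynomial. -/
lemma hom_pow (p : ℂ[X]) {s : ℕ} (hp : p.natDegree ≤ s) (φ y : A) (q : ℕ) :
    (∑ j ∈ range (s + 1), p.coeff j • (y ^ j * φ ^ (s - j))) ^ q =
      ∑ m ∈ range (s * q + 1), (p ^ q).coeff m • (y ^ m * φ ^ (s * q - m)) := by
  rw [← aeval_hom, ← aeval_hom, homogenize_pow' p hp, map_pow]

end hom

/-! ### Averages over roots of unity -/

lemma root_avg {N : ℕ} (hN : 0 < N) {ω : ℂ} (hω : IsPrimitiveRoot ω N) {e s : ℕ} (he : e < N)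
    (hs : s < N) :
    ∑ k ∈ range N, ((N : ℂ)⁻¹ * (ω ^ k)⁻¹ ^ s) * (ω ^ k) ^ e = if e = s then 1 else 0 := by
  have hω0 : ω ≠ 0 := hω.ne_zero (by omega)
  have h1 : ∀ k ∈ range N, ((N : ℂ)⁻¹ * (ω ^ k)⁻¹ ^ s) * (ω ^ k) ^ e =
      (N : ℂ)⁻¹ * ((ω ^ s)⁻¹ * ω ^ e) ^ k := by
    intro k _
    rw [mul_assoc]
    congr 1
    rw [inv_pow, mul_pow, inv_pow, ← pow_mul, ← pow_mul, ← pow_mul, ← pow_mul, mul_comm k s,
      mul_comm k e]
  rw [Finset.sum_congr rfl h1, ← Finset.mul_sum]
  have hN0 : (N : ℂ) ≠ 0 := by exact_mod_cast (by omega : N ≠ 0)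
  split_ifs with h
  · subst h
    have h2 : (ω ^ e)⁻¹ * ω ^ e = 1 := inv_mul_cancel₀ (pow_ne_zero _ hω0)
    rw [h2]
    simp [hN0]
  · have h2 : (ω ^ s)⁻¹ * ω ^ e ≠ 1 := by
      intro h3
      apply h
      apply hω.pow_inj he hs
      have h4 : ω ^ s ≠ 0 := pow_ne_zero _ hω0
      field_simp at h3
      exact h3
    rw [geom_sum_eq h2]
    have h3 : ((ω ^ s)⁻¹ * ω ^ e) ^ N = 1 := by
      rw [mul_pow, inv_pow, ← pow_mul, ← pow_mul, mul_comm s N, mul_comm e N, pow_mul, pow_mul,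
        hω.pow_eq_one]
      simp
    rw [h3]
    simp

/-! ### The key step -/

section key

variable {A W : Type*} [CommRing A] [Algebra ℂ A] [AddCommGroup W] [Module ℂ W]

theorem key_const {s q D D2 : ℕ} (hs : 1 ≤ s) (hq : 1 ≤ q)
    (T : MultilinearMap ℂ (fun _ : Fin s => A) W) (y : Fin s → A)
    (φ f2 h : A) (hφ : φ ∈ AH (Mono y D) 1) (hf2 : f2 ∈ AH (Mono y D2) 1)
    (hh : h ∈ AH (Mono y D) 1) :
    T (fun _ => f2 ^ q * (φ ^ (s * q - 1) * h)) ∈
      AH {x | ∃ f ∈ AH (Mono y (s * D + D2)) 1, x = T (fun _ => f ^ q)}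
        (((s : ℝ) + 1) ^ (s * q)) := by
  classical
  obtain ⟨p, hp1, hp2, hp3⟩ := exists_root' q hq s
  have hc1 : (p ^ q).coeff 1 = 1 := by
    rw [hp3 1 hs, coeff_add, coeff_one, coeff_X_one, if_neg (by omega), zero_add]
  have hc2 : ∀ m, 2 ≤ m → m ≤ s → (p ^ q).coeff m = 0 := by
    intro m hm hms
    rw [hp3 m hms, coeff_add, coeff_one, coeff_X, if_neg (by omega), if_neg (by omega), zero_add]
  obtain ⟨G, hG⟩ : ∃ G : ℕ → A, G = fun m =>
    (p ^ q).coeff m • (f2 ^ q * (h ^ m * φ ^ (s * q - m))) := ⟨_, rfl⟩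
  obtain ⟨g, hg⟩ : ∃ g : ℂ → A, g = fun t =>
    f2 * ∑ j ∈ range (s + 1), p.coeff j • ((t • h) ^ j * φ ^ (s - j)) := ⟨_, rfl⟩
  have hpow : ∀ t : ℂ, (g t) ^ q = ∑ m ∈ range (s * q + 1), t ^ m • G m := by
    intro t
    rw [hg]
    simp only
    rw [mul_pow, hom_pow p hp1, Finset.mul_sum]
    apply Finset.sum_congr rfl
    intro m _
    simp only [hG, Algebra.smul_def, map_pow]
    ring
  have hs1 : (0 : ℝ) < (s : ℝ) + 1 := by positivity
  -- the value at a point of the unit circle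
  have hval : ∀ t : ℂ, ‖t‖ = 1 → T (fun _ => (g t) ^ q) ∈
      AH {x | ∃ f ∈ AH (Mono y (s * D + D2)) 1, x = T (fun _ => f ^ q)}
        (((s : ℝ) + 1) ^ (s * q)) := by
    intro t ht
    have h1 : g t ∈ AH (Mono y (s * D + D2)) ((s : ℝ) + 1) := by
      rw [hg]
      simp only
      have h2 : ∑ j ∈ range (s + 1), p.coeff j • ((t • h) ^ j * φ ^ (s - j)) ∈
          AH (Mono y (s * D)) (∑ j ∈ range (s + 1), (1 : ℝ)) := by
        apply AH_sum
        intro j hj
        rw [mem_range] at hj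
        have h3 : (t • h) ^ j * φ ^ (s - j) = t ^ j • (h ^ j * φ ^ (s - j)) := by
          rw [_root_.smul_pow, smul_mul_assoc]
        rw [h3, smul_smul]
        have h4 : h ^ j * φ ^ (s - j) ∈ AH (Mono y (s * D)) 1 := by
          have h5 := AH_mul (AH_pow hh j) (AH_pow hφ (s - j))
          rw [mul_one, ← add_mul] at h5
          have h6 : j + (s - j) = s := by omega
          rwa [h6] at h5
        refine AH_mono ?_ (AH_smul _ h4)
        rw [norm_mul, norm_pow, ht, one_pow, mul_one, mul_one]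
        exact hp2 j
      have h3 := AH_mul hf2 h2
      rw [Finset.sum_const, card_range, nsmul_eq_mul, one_mul, mul_one, add_comm D2] at h3
      push_cast at h3
      exact h3
    obtain ⟨f, hf⟩ : ∃ f : A, f = (((s : ℂ) + 1)⁻¹) • g t := ⟨_, rfl⟩
    have hs2 : ((s : ℂ) + 1) ≠ 0 := by exact_mod_cast (Nat.succ_ne_zero s)
    have hnorm : ‖((s : ℂ) + 1)‖ = (s : ℝ) + 1 := by
      have h5 : ((s : ℂ) + 1) = (((s : ℝ) + 1 : ℝ) : ℂ) := by push_cast; rfl
      rw [h5, Complex.norm_real, Real.norm_of_nonneg hs1.le]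
    have hf1 : f ∈ AH (Mono y (s * D + D2)) 1 := by
      rw [hf]
      refine AH_mono ?_ (AH_smul _ h1)
      rw [norm_inv, hnorm, inv_mul_cancel₀ hs1.ne']
    have hgf : g t = ((s : ℂ) + 1) • f := by
      rw [hf, smul_smul, mul_inv_cancel₀ hs2, one_smul]
    have h4 : T (fun _ => (g t) ^ q) = (((s : ℂ) + 1) ^ (s * q)) • T (fun _ => f ^ q) := by
      rw [hgf]
      have h5 : (fun _ : Fin s => (((s : ℂ) + 1) • f) ^ q) =
          fun i : Fin s => (((s : ℂ) + 1) ^ q) • (fun _ : Fin s => f ^ q) i := by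
        funext i
        rw [_root_.smul_pow]
      rw [h5, MultilinearMap.map_smul_univ, Finset.prod_const, card_univ, Fintype.card_fin,
        ← pow_mul, mul_comm q s]
    rw [h4]
    refine AH_mono ?_ (AH_smul _ (AH_mem ⟨f, hf1, rfl⟩))
    rw [norm_pow, hnorm, mul_one]
  -- the expansion
  obtain ⟨N, hN⟩ : ∃ N : ℕ, N = s * (s * q) + s + 1 := ⟨_, rfl⟩
  have hN0 : 0 < N := by omega
  have hω := Complex.isPrimitiveRoot_exp N (by omega)
  obtain ⟨ω, hωd⟩ : ∃ ω : ℂ, ω = Complex.exp (2 * Real.pi * Complex.I / N) := ⟨_, rfl⟩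
  rw [← hωd] at hω
  have hωn : ‖ω‖ = 1 := Complex.norm_eq_one_of_pow_eq_one hω.pow_eq_one (by omega)
  have key : T (fun _ => f2 ^ q * (φ ^ (s * q - 1) * h)) =
      ∑ k ∈ range N, ((N : ℂ)⁻¹ * (ω ^ k)⁻¹ ^ s) • T (fun _ => (g (ω ^ k)) ^ q) := by
    have h1 : ∀ t : ℂ, T (fun _ => (g t) ^ q) =
        ∑ r ∈ Fintype.piFinset (fun _ : Fin s => range (s * q + 1)),
          t ^ (∑ i, r i) • T (fun i => G (r i)) := by
      intro t
      rw [hpow t, MultilinearMap.map_sum_finset]
      apply Finset.sum_congr rfl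
      intro r _
      rw [MultilinearMap.map_smul_univ, Finset.prod_pow_eq_pow_sum]
    simp only [h1, Finset.smul_sum, smul_smul]
    rw [Finset.sum_comm]
    simp only [← Finset.sum_smul]
    have h2 : ∀ r ∈ Fintype.piFinset (fun _ : Fin s => range (s * q + 1)),
        (∑ k ∈ range N, ((N : ℂ)⁻¹ * (ω ^ k)⁻¹ ^ s) * (ω ^ k) ^ (∑ i, r i)) •
          T (fun i => G (r i)) = if r = fun _ => 1 then T (fun _ => G 1) else 0 := by
      intro r hr
      rw [Fintype.mem_piFinset] at hr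
      have hr1 : ∀ i, r i ≤ s * q := fun i => by
        have := hr i
        rw [mem_range] at this
        omega
      have hr2 : ∑ i, r i ≤ s * (s * q) := by
        refine (Finset.sum_le_card_nsmul univ r (s * q) (fun i _ => hr1 i)).trans ?_
        rw [card_univ, Fintype.card_fin, smul_eq_mul]
      rw [root_avg hN0 hω (by omega) (by omega)]
      by_cases hre : r = fun _ => 1
      · rw [if_pos hre, hre]
        simp
      · rw [if_neg hre]
        split_ifs with hsum
        · rw [one_smul]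
          have h4 : ∃ i, 2 ≤ r i := by
            by_contra hcon
            push Not at hcon
            apply hre
            funext i
            have h5 : ∀ j, r j ≤ 1 := fun j => by
              have := hcon j
              omega
            by_contra hi
            have h6 : ∑ j, r j < ∑ _j : Fin s, 1 :=
              Finset.sum_lt_sum (fun j _ => h5 j) ⟨i, Finset.mem_univ _, by
                have := h5 i
                omega⟩
            rw [Finset.sum_const, Finset.card_univ, Fintype.card_fin, smul_eq_mul, mul_one] at h6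
            omega
          obtain ⟨i, hi⟩ := h4
          have h5 : r i ≤ s := by
            rw [← hsum]
            exact Finset.single_le_sum (fun _ _ => Nat.zero_le _) (Finset.mem_univ i)
          apply MultilinearMap.map_coord_zero _ i
          rw [hG]
          simp only
          rw [hc2 _ hi h5, zero_smul]
        · rw [zero_smul]
    rw [Finset.sum_congr rfl h2, Finset.sum_ite_eq', if_pos]
    · rw [hG]
      simp only
      rw [hc1, one_smul, pow_one]
      congr 1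
      funext i
      ring
    · refine Fintype.mem_piFinset.2 (fun _ => ?_)
      rw [mem_range]
      have : 1 ≤ s * q := Nat.mul_pos hs hq
      omega
  rw [key]
  refine AH_mono ?_ (AH_sum (range N) _ _ (fun k _ => AH_smul _ (hval (ω ^ k) (by
    rw [norm_pow, hωn, one_pow]))))
  have h1 : ∀ k ∈ range N, ‖(N : ℂ)⁻¹ * (ω ^ k)⁻¹ ^ s‖ * ((s : ℝ) + 1) ^ (s * q) =
      (N : ℝ)⁻¹ * ((s : ℝ) + 1) ^ (s * q) := by
    intro k _
    rw [norm_mul, norm_pow, norm_inv, norm_inv, norm_pow, hωn, one_pow, inv_one, one_pow,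
      mul_one, Complex.norm_natCast]
  rw [Finset.sum_congr rfl h1, Finset.sum_const, card_range, nsmul_eq_mul, ← mul_assoc,
    mul_inv_cancel₀ (by exact_mod_cast hN0.ne'), one_mul]

end key

/-! ### Polarisation with norms -/

section polar

variable {A W : Type*} [CommRing A] [Algebra ℂ A] [AddCommGroup W] [Module ℂ W]

/-- Sign. -/
noncomputable def sg (b : Bool) : ℂ := if b then 1 else -1

lemma sg_not (b : Bool) : sg (!b) = - sg b := by
  cases b <;> simp [sg]

lemma sg_sq (b : Bool) : sg b * sg b = 1 := by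
  cases b <;> simp [sg]

lemma sg_norm (b : Bool) : ‖sg b‖ = 1 := by
  cases b <;> simp [sg]

lemma sign_sum {s : ℕ} (κ : Fin s → Fin s) :
    ∑ ε : Fin s → Bool, (∏ i, sg (ε i)) * ∏ j, sg (ε (κ j)) =
      if Function.Bijective κ then (2 : ℂ) ^ s else 0 := by
  classical
  split_ifs with hκ
  · have h1 : ∀ ε : Fin s → Bool, (∏ i, sg (ε i)) * ∏ j, sg (ε (κ j)) = 1 := by
      intro ε
      have h2 : ∏ j, sg (ε (κ j)) = ∏ i, sg (ε i) :=
        Function.Bijective.prod_comp hκ (fun i => sg (ε i))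
      rw [h2, ← Finset.prod_mul_distrib]
      exact Finset.prod_eq_one (fun i _ => sg_sq _)
    rw [Finset.sum_congr rfl (fun ε _ => h1 ε), Finset.sum_const, card_univ, nsmul_eq_mul,
      mul_one, Fintype.card_fun, Fintype.card_bool, Fintype.card_fin]
    push_cast
    rfl
  · have h1 : ¬ Function.Surjective κ := fun h2 =>
      hκ ⟨Finite.injective_iff_surjective.2 h2, h2⟩
    rw [Function.Surjective] at h1
    push Not at h1
    obtain ⟨i0, hi0⟩ := h1
    apply Finset.sum_involution (fun ε _ => Function.update ε i0 (!ε i0))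
    · intro ε _
      have h2 : ∏ j, sg (Function.update ε i0 (!ε i0) (κ j)) = ∏ j, sg (ε (κ j)) := by
        apply Finset.prod_congr rfl
        intro j _
        rw [Function.update_of_ne (hi0 j)]
      have h3 : ∏ i, sg (Function.update ε i0 (!ε i0) i) = - ∏ i, sg (ε i) := by
        rw [← Finset.mul_prod_erase univ _ (Finset.mem_univ i0),
          ← Finset.mul_prod_erase univ (fun i => sg (ε i)) (Finset.mem_univ i0),
          Function.update_self, sg_not, neg_mul]
        congr 2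
        apply Finset.prod_congr rfl
        intro i hi
        rw [Function.update_of_ne (Finset.ne_of_mem_erase hi)]
      rw [h2, h3]
      ring
    · intro ε _ _ h2
      have h3 := congrFun h2 i0
      rw [Function.update_self] at h3
      cases h4 : ε i0 <;> simp [h4] at h3
    · intro ε _
      funext i
      by_cases hi : i = i0
      · subst hi
        simp
      · rw [Function.update_of_ne hi, Function.update_of_ne hi]
    · intro ε _
      exact Finset.mem_univ _

lemma polar_sum {s : ℕ} (T : MultilinearMap ℂ (fun _ : Fin s => A) W) (hT : Sy T)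
    (h : Fin s → A) : ∃ n : ℕ, 1 ≤ n ∧
    ∑ ε : Fin s → Bool, (∏ i, sg (ε i)) • T (fun _ => ∑ i, sg (ε i) • h i) =
      ((2 : ℂ) ^ s * n) • T h := by
  classical
  refine ⟨(univ.filter (fun κ : Fin s → Fin s => Function.Bijective κ)).card, ?_, ?_⟩
  · apply Finset.card_pos.2
    exact ⟨id, Finset.mem_filter.2 ⟨Finset.mem_univ _, Function.bijective_id⟩⟩
  · have h1 : ∀ ε : Fin s → Bool, T (fun _ => ∑ i, sg (ε i) • h i) =
        ∑ κ : Fin s → Fin s, (∏ j, sg (ε (κ j))) • T (fun i => h (κ i)) := by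
      intro ε
      rw [MultilinearMap.map_sum]
      apply Finset.sum_congr rfl
      intro κ _
      rw [MultilinearMap.map_smul_univ]
    simp only [h1, Finset.smul_sum, smul_smul]
    rw [Finset.sum_comm]
    simp only [← Finset.sum_smul, sign_sum]
    have h2 : ∀ κ : Fin s → Fin s, (if Function.Bijective κ then (2 : ℂ) ^ s else 0) •
        T (fun i => h (κ i)) = if Function.Bijective κ then (2 : ℂ) ^ s • T h else 0 := by
      intro κ
      split_ifs with hκ
      · congr 1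
        exact hT (Equiv.ofBijective κ hκ) h
      · rw [zero_smul]
    rw [Finset.sum_congr rfl (fun κ _ => h2 κ), ← Finset.sum_filter, Finset.sum_const,
      ← Nat.cast_smul_eq_nsmul ℂ, smul_smul, mul_comm]

end polar

/-! ### The row -/

theorem rowKEY : RowKEY := by
  classical
  intro s q D D2 hs hq A W _ _ _ _ T hT y φ hφ f2 hf2 h hh
  obtain ⟨G, hG⟩ : ∃ G : Set W, G = {x | ∃ f ∈ AH (Mono y (s * D + D2)) 1,
    x = T (fun _ => f ^ q)} := ⟨_, rfl⟩
  rw [← hG]
  obtain ⟨g, hg⟩ : ∃ g : A, g = f2 ^ q * φ ^ (s * q - 1) := ⟨_, rfl⟩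
  obtain ⟨T', hT'⟩ : ∃ T' : MultilinearMap ℂ (fun _ : Fin s => A) W,
    T' = T.compLinearMap (fun _ => LinearMap.mulLeft ℂ g) := ⟨_, rfl⟩
  have hT1 : ∀ P : Fin s → A, T' P = T (fun i => g * P i) := by
    intro P
    rw [hT', MultilinearMap.compLinearMap_apply]
    rfl
  have hTs : Sy T' := by
    intro σ P
    rw [hT1, hT1]
    exact hT σ (fun i => g * P i)
  have hgoal : T (fun i => f2 ^ q * (φ ^ (s * q - 1) * h i)) = T' h := by
    rw [hT1, hg]
    congr 1
    funext i
    ring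
  rw [hgoal]
  have hs0 : (s : ℂ) ≠ 0 := by exact_mod_cast (by omega : s ≠ 0)
  have hsr : (0 : ℝ) < s := by exact_mod_cast hs
  have hconst : ∀ ε : Fin s → Bool, T' (fun _ => ∑ i, sg (ε i) • h i) ∈
      AH G ((s : ℝ) ^ s * ((s : ℝ) + 1) ^ (s * q)) := by
    intro ε
    obtain ⟨k, hk⟩ : ∃ k : A, k = (s : ℂ)⁻¹ • ∑ i, sg (ε i) • h i := ⟨_, rfl⟩
    have hk1 : k ∈ AH (Mono y D) 1 := by
      rw [hk]
      refine AH_mono ?_ (AH_smul _ (AH_sum univ (fun i => sg (ε i) • h i) (fun _ => 1)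
        (fun i _ => AH_mono ?_ (AH_smul _ (hh i)))))
      · rw [Finset.sum_const, card_univ, Fintype.card_fin, nsmul_eq_mul, mul_one, norm_inv,
          Complex.norm_natCast, inv_mul_cancel₀ hsr.ne']
      · rw [sg_norm, one_mul]
    have hk2 : ∑ i, sg (ε i) • h i = (s : ℂ) • k := by
      rw [hk, smul_smul, mul_inv_cancel₀ hs0, one_smul]
    have h1 : T' (fun _ => ∑ i, sg (ε i) • h i) = ((s : ℂ) ^ s) • T' (fun _ => k) := by
      rw [hk2]
      have h2 := T'.map_smul_univ (fun _ => (s : ℂ)) (fun _ => k)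
      rw [h2, Finset.prod_const, card_univ, Fintype.card_fin]
    rw [h1]
    have h3 : T' (fun _ => k) ∈ AH G (((s : ℝ) + 1) ^ (s * q)) := by
      have h4 := key_const hs hq T y φ f2 k hφ hf2 hk1
      rw [← hG] at h4
      have h5 : T' (fun _ => k) = T (fun _ => f2 ^ q * (φ ^ (s * q - 1) * k)) := by
        rw [hT1, hg]
        congr 1
        funext i
        ring
      rw [h5]
      exact h4
    refine AH_mono ?_ (AH_smul _ h3)
    rw [norm_pow, Complex.norm_natCast]
  obtain ⟨n, hn, hsum⟩ := polar_sum T' hTs h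
  have hn0 : (n : ℂ) ≠ 0 := by exact_mod_cast (by omega : n ≠ 0)
  have hnr : (1 : ℝ) ≤ n := by exact_mod_cast hn
  have h2n : (2 : ℂ) ^ s * n ≠ 0 := mul_ne_zero (pow_ne_zero _ two_ne_zero) hn0
  have hfin : T' h = ((2 : ℂ) ^ s * n)⁻¹ •
      ∑ ε : Fin s → Bool, (∏ i, sg (ε i)) • T' (fun _ => ∑ i, sg (ε i) • h i) := by
    rw [hsum, smul_smul, inv_mul_cancel₀ h2n, one_smul]
  rw [hfin]
  refine AH_mono ?_ (AH_smul _ (AH_sum univ _
    (fun _ => (s : ℝ) ^ s * ((s : ℝ) + 1) ^ (s * q)) (fun ε _ => AH_mono ?_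
      (AH_smul _ (hconst ε)))))
  · rw [Finset.sum_const, card_univ, Fintype.card_fun, Fintype.card_bool, Fintype.card_fin,
      nsmul_eq_mul, norm_inv, norm_mul, norm_pow, Complex.norm_natCast, Complex.norm_ofNat]
    push_cast
    have h5 : (0 : ℝ) < 2 ^ s := by positivity
    have h6 : (0 : ℝ) ≤ (s : ℝ) ^ s * ((s : ℝ) + 1) ^ (s * q) := by positivity
    have h7 : ((n : ℝ))⁻¹ ≤ 1 := inv_le_one_of_one_le₀ hnr
    have h8 : ((2 : ℝ) ^ s * n)⁻¹ * (2 ^ s * ((s : ℝ) ^ s * ((s : ℝ) + 1) ^ (s * q))) =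
        (n : ℝ)⁻¹ * ((s : ℝ) ^ s * ((s : ℝ) + 1) ^ (s * q)) := by
      rw [mul_inv]
      field_simp
    rw [h8]
    exact mul_le_of_le_one_left h6 h7
  · rw [norm_prod]
    simp only [sg_norm, Finset.prod_const_one, one_mul, le_refl]

end Vale.Agent.P181.H662
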